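import Vale.Agent.P028.Defs

namespace Vale.Agent.P028

open MeasureTheory Finset Real

theorem block {c c' : ℝ} (h0 : 0 < c') (hc : c' < c) {ψ : ℕ → ℝ} (hψ : ∀ q, 0 ≤ ψ q) (ω : ℕ → ℕ)
    (h : ¬Summable fun q => ψ q / c ^ ω q) (Q : ℕ) (M : ℝ) :
    ∃ (k : ℕ) (T : Finset ℕ), (∀ q ∈ T, Q ≤ q ∧ ω q = k) ∧ M * c' ^ k < ∑ q ∈ T, ψ q := by
  by_contra hn
  have c0 : 0 < c := h0.trans hc
  have hb : ∀ (k : ℕ) (T : Finset ℕ), (∀ q ∈ T, Q ≤ q ∧ ω q = k) →
      ∑ q ∈ T, ψ q ≤ max M 0 * c' ^ k := fun k T hT =>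
    (not_lt.1 fun hl => hn ⟨k, T, hT, hl⟩).trans
      (mul_le_mul_of_nonneg_right (le_max_left _ _) (by positivity))
  have r0 : 0 ≤ c' / c := by positivity
  have r1 : c' / c < 1 := (div_lt_one c0).2 hc
  apply h
  rw [← summable_nat_add_iff Q]
  refine summable_of_sum_le (c := max M 0 * (1 - c' / c)⁻¹)
    (fun q => div_nonneg (hψ _) (by positivity)) fun u => ?_
  rw [← sum_fiberwise_of_maps_to (t := u.image fun q => ω (q + Q)) (g := fun q => ω (q + Q))
    fun q hq => mem_image_of_mem _ hq]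
  have h1 : ∀ k, ∑ q ∈ u with ω (q + Q) = k, ψ (q + Q) / c ^ ω (q + Q) ≤
      max M 0 * (c' / c) ^ k := fun k => by
    have e : ∑ q ∈ u with ω (q + Q) = k, ψ (q + Q) / c ^ ω (q + Q) =
        (∑ q ∈ (u.filter fun q => ω (q + Q) = k).image (· + Q), ψ q) / c ^ k := by
      rw [sum_image fun a _ b _ hab => Nat.add_right_cancel hab, sum_div]
      exact sum_congr rfl fun q hq => by rw [(mem_filter.1 hq).2]
    rw [e, div_pow, ← mul_div_assoc]
    refine div_le_div_of_nonneg_right (hb k _ fun q hq => ?_) (by positivity)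
    obtain ⟨a, ha, rfl⟩ := mem_image.1 hq
    exact ⟨Nat.le_add_left _ _, (mem_filter.1 ha).2⟩
  refine (sum_le_sum fun k _ => h1 k).trans ?_
  rw [← mul_sum, ← tsum_geometric_of_lt_one r0 r1]
  exact mul_le_mul_of_nonneg_left ((summable_geometric_of_lt_one r0 r1).sum_le_tsum _
    fun _ _ => by positivity) (le_max_right _ _)

end Vale.Agent.P028
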