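import Mathlib

namespace Vale.Agent.P028T

open MeasureTheory Finset Filter

theorem count_le (t δ : ℝ) (hδ : 0 ≤ δ) (q r : ℕ) (hr : 0 < r) :
    (((range r).filter fun j : ℕ => ‖((t + q * (j / r) : ℝ) : UnitAddCircle)‖ ≤ δ).card : ℝ) ≤
      2 * δ * r + Nat.gcd q r := by
  obtain ⟨g, q', r', hg, hc, rfl, rfl⟩ : ∃ g q' r', 0 < g ∧ Nat.Coprime q' r' ∧ q = q' * g ∧
      r = r' * g := by
    obtain ⟨g, q', r', h1, h2, h3, h4⟩ := Nat.exists_coprime' (Nat.gcd_pos_of_pos_right q hr)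
    exact ⟨g, q', r', h1, h2, h3, h4⟩
  have hr' : 0 < r' := Nat.pos_of_mul_pos_right hr
  have hr0 : (0 : ℝ) < r' := by exact_mod_cast hr'
  have hg0 : (0 : ℝ) < g := by exact_mod_cast hg
  rw [Nat.gcd_mul_right, hc, one_mul]
  have key := card_le_mul_card_image_of_maps_to
    (s := (range (r' * g)).filter fun j : ℕ =>
      ‖((t + (q' * g : ℕ) * (j / (r' * g : ℕ)) : ℝ) : UnitAddCircle)‖ ≤ δ)
    (t := Icc ⌈r' * (-δ - t)⌉ ⌊r' * (δ - t)⌋)
    (f := fun j : ℕ => (q' * j : ℤ) - r' * round (t + (q' * g : ℕ) * (j / (r' * g : ℕ)) : ℝ))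
    (fun j hj => by
      have h := (mem_filter.1 hj).2
      rw [UnitAddCircle.norm_eq, abs_le] at h
      have e : ((q' * g : ℕ) : ℝ) * (j / (r' * g : ℕ)) = q' * j / r' := by
        push_cast; field_simp
      rw [e] at h ⊢
      generalize round (t + q' * j / r' : ℝ) = m at h ⊢
      have e2 : (q' * j : ℝ) = r' * (q' * j / r') := by field_simp
      rw [mem_Icc, Int.ceil_le, Int.le_floor]
      push_cast
      generalize (q' * j / r' : ℝ) = y at h e2 ⊢
      rw [e2]
      constructor <;> nlinarith [h.1, h.2]) g (fun b _ => by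
      refine (card_le_card_of_injOn (t := range g) (fun j => j / r') (fun j hj => ?_)
        (fun j hj j' hj' e => ?_)).trans (card_range g).le
      · have := mem_range.1 (mem_filter.1 (mem_filter.1 (mem_coe.1 hj)).1).1
        exact mem_coe.2 (mem_range.2 (Nat.div_lt_of_lt_mul this))
      · have h1 := (mem_filter.1 (mem_coe.1 hj)).2
        have h2 := (mem_filter.1 (mem_coe.1 hj')).2
        have h3 : (r' : ℤ) ∣ q' * (j' - j : ℤ) := by
          rw [← h2] at h1
          exact ⟨round (t + (q' * g : ℕ) * (j' / (r' * g : ℕ)) : ℝ) -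
            round (t + (q' * g : ℕ) * (j / (r' * g : ℕ)) : ℝ), by linarith⟩
        have h4 : j ≡ j' [MOD r'] := (Nat.modEq_iff_dvd).2
          ((Nat.isCoprime_iff_coprime.2 hc.symm).dvd_of_dvd_mul_left h3)
        rw [← Nat.div_add_mod j r', ← Nat.div_add_mod j' r', show j / r' = j' / r' from e,
          show j % r' = j' % r' from h4])
  have h5 : ((Icc ⌈r' * (-δ - t)⌉ ⌊r' * (δ - t)⌋).card : ℝ) ≤ 2 * δ * r' + 1 := by
    rw [Int.card_Icc]
    rcases le_total (⌊r' * (δ - t)⌋ + 1 - ⌈r' * (-δ - t)⌉) 0 with h | h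
    · rw [Int.toNat_of_nonpos h]; push_cast; positivity
    · rw [← Int.cast_natCast, Int.toNat_of_nonneg h]
      push_cast
      linarith [Int.floor_le (r' * (δ - t)), Int.le_ceil (r' * (-δ - t))]
  have h6 := (Nat.cast_le (α := ℝ)).2 key
  rw [Nat.cast_mul g] at h6
  refine h6.trans ((mul_le_mul_of_nonneg_left h5 hg0.le).trans (le_of_eq ?_))
  push_cast
  ring

def EE (q : ℕ) (γ δ : ℝ) : Set UnitAddCircle := {x | ‖(q : ℤ) • x - (γ : UnitAddCircle)‖ ≤ δ}

theorem EE_meas (q : ℕ) (γ δ : ℝ) : MeasurableSet (EE q γ δ) :=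
  measurableSet_le (by fun_prop) measurable_const

theorem EE_vol {q : ℕ} (hq : 0 < q) (γ : ℝ) {δ : ℝ} (h0 : 0 ≤ δ) (h1 : 2 * δ ≤ 1) :
    volume.real (EE q γ δ) = 2 * δ := by
  have hm := Measure.measurePreserving_zsmul (volume : Measure UnitAddCircle)
    (n := (q : ℤ)) (by exact_mod_cast hq.ne')
  have e : EE q γ δ = (fun x => (q : ℤ) • x) ⁻¹' Metric.closedBall (γ : UnitAddCircle) δ := by
    ext x; simp [EE, dist_eq_norm]
  rw [e, Measure.real, hm.measure_preimage Metric.isClosed_closedBall.measurableSet.nullMeasurableSet,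
    AddCircle.volume_closedBall, min_eq_right h1, ENNReal.toReal_ofReal (by linarith)]

theorem overlap (q : ℕ) {r : ℕ} (hr : 0 < r) (γ γ' : ℝ) {δ : ℝ} (δ' : ℝ) (hδ : 0 ≤ δ) :
    volume.real (EE q γ δ ∩ EE r γ' δ') ≤ (2 * δ + Nat.gcd q r / r) * volume.real (EE r γ' δ') := by
  have hr0 : (0 : ℝ) < r := by exact_mod_cast hr
  let A : ℕ → Set UnitAddCircle := fun j =>
    (fun x => x + ((j / r : ℝ) : UnitAddCircle)) ⁻¹' (EE q γ δ ∩ EE r γ' δ')
  have hA : ∀ j, MeasurableSet (A j) := fun j =>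
    ((EE_meas _ _ _).inter (EE_meas _ _ _)).preimage (by fun_prop)
  have h1 : ∀ j, volume.real (A j) = volume.real (EE q γ δ ∩ EE r γ' δ') := fun j => by
    simp only [A, Measure.real, measure_preimage_add_right]
  have hc : ∀ j : ℕ, (r : ℤ) • ((j / r : ℝ) : UnitAddCircle) = 0 := fun j => by
    rw [← AddCircle.coe_zsmul, AddCircle.coe_eq_zero_iff]
    exact ⟨j, by simp; field_simp⟩
  have h2 : ∀ x, ∑ j ∈ range r, (A j).indicator (1 : UnitAddCircle → ℝ) x ≤
      (2 * δ * r + Nat.gcd q r) * (EE r γ' δ').indicator 1 x := fun x => by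
    by_cases hx : x ∈ EE r γ' δ'
    · obtain ⟨y, rfl⟩ := QuotientAddGroup.mk_surjective x
      rw [Set.indicator_of_mem hx, Pi.one_apply, mul_one]
      refine le_trans ?_ (count_le (q * y - γ) δ hδ q r hr)
      rw [card_filter]
      push_cast
      refine sum_le_sum fun j _ => ?_
      by_cases hj : (y : UnitAddCircle) ∈ A j
      · rw [Set.indicator_of_mem hj, Pi.one_apply, if_pos]
        have := hj.1
        simp only [EE, Set.mem_ofPred_eq, ← AddCircle.coe_add, ← AddCircle.coe_zsmul,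
          ← AddCircle.coe_sub] at this ⊢
        rwa [show ((q : ℤ) • (y + j / r) - γ : ℝ) = q * y - γ + q * (j / r) by simp; ring] at this
      · rw [Set.indicator_of_notMem hj]
        split_ifs <;> norm_num
    · rw [Set.indicator_of_notMem hx, mul_zero]
      refine le_of_eq (sum_eq_zero fun j _ => Set.indicator_of_notMem (fun hj => hx ?_) _)
      have := hj.2
      simpa only [EE, Set.mem_ofPred_eq, smul_add, hc, add_zero] using this
  have h3 := integral_mono (μ := volume)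
    (integrable_finsetSum _ fun j _ => (integrable_const (1 : ℝ)).indicator (hA j))
    (((integrable_const (1 : ℝ)).indicator (EE_meas r γ' δ')).const_mul _) h2
  rw [integral_finsetSum _ fun j _ => (integrable_const (1 : ℝ)).indicator (hA j),
    integral_const_mul] at h3
  simp only [integral_indicator_const _ (hA _), integral_indicator_const _ (EE_meas _ _ _), h1,
    smul_eq_mul, mul_one, sum_const, card_range, nsmul_eq_mul] at h3
  refine le_of_mul_le_mul_left (h3.trans (le_of_eq ?_)) hr0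
  field_simp

theorem second (T : Finset ℕ) (hT : ∀ q ∈ T, 0 < q) (γ δ : ℕ → ℝ) (h0 : ∀ q, 0 ≤ δ q)
    (h1 : ∀ q, 2 * δ q ≤ 1) :
    (∑ q ∈ T, 2 * δ q) ^ 2 * volume.real (⋃ q ∈ T, EE q (γ q) (δ q))ᶜ ≤
      ∑ r ∈ T, 2 * δ r * (1 + 2 * ∑ q ∈ T.filter (· < r), (Nat.gcd q r : ℝ) / r) := by
  set M := ∑ q ∈ T, 2 * δ q with hM
  let I : ℕ → UnitAddCircle → ℝ := fun q => (EE q (γ q) (δ q)).indicator fun _ => 1
  have iI : ∀ q, Integrable (I q) := fun q => (integrable_const (1 : ℝ)).indicator (EE_meas _ _ _)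
  have eI : ∀ q r, (fun x => I q x * I r x) =
      (EE q (γ q) (δ q) ∩ EE r (γ r) (δ r)).indicator fun _ => 1 := fun q r => by
    funext x
    simp only [I, ← Set.inter_indicator_mul, mul_one]
  have iJ : ∀ q r, Integrable fun x => I q x * I r x := fun q r => by
    rw [eI]; exact (integrable_const (1 : ℝ)).indicator ((EE_meas _ _ _).inter (EE_meas _ _ _))
  have hU : MeasurableSet (⋃ q ∈ T, EE q (γ q) (δ q))ᶜ :=
    (Finset.measurableSet_biUnion _ fun q _ => EE_meas _ _ _).compl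
  have i1 : Integrable fun x => ∑ q ∈ T, ∑ r ∈ T, I q x * I r x :=
    integrable_finsetSum _ fun q _ => integrable_finsetSum _ fun r _ => iJ q r
  have i2 : Integrable fun x => 2 * M * ∑ q ∈ T, I q x :=
    (integrable_finsetSum _ fun q _ => iI q).const_mul _
  have h2 := integral_mono (μ := volume) ((integrable_const (M ^ 2)).indicator hU)
    ((i1.sub i2).add (integrable_const (M ^ 2))) fun x => by
      have e : ∑ q ∈ T, ∑ r ∈ T, I q x * I r x - 2 * M * ∑ q ∈ T, I q x + M ^ 2 =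
          (∑ q ∈ T, I q x - M) ^ 2 := by rw [← sum_mul_sum]; ring
      simp only [Pi.add_apply, Pi.sub_apply]
      rw [e]
      by_cases hx : x ∈ (⋃ q ∈ T, EE q (γ q) (δ q))ᶜ
      · rw [Set.indicator_of_mem hx, sum_eq_zero fun q hq => Set.indicator_of_notMem
          (fun h => hx (Set.mem_biUnion hq h)) _]
        simp
      · rw [Set.indicator_of_notMem hx]; positivity
  have e1 : ∫ x, 2 * M * ∑ q ∈ T, I q x = 2 * M * M := by
    rw [integral_const_mul, integral_finsetSum _ fun q _ => iI q]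
    congr 1
    refine sum_congr rfl fun q hq => ?_
    simp only [I]
    rw [integral_indicator_const _ (EE_meas _ _ _), EE_vol (hT q hq) _ (h0 q) (h1 q)]
    simp
  have e2 : ∫ x, ∑ q ∈ T, ∑ r ∈ T, I q x * I r x =
      ∑ q ∈ T, ∑ r ∈ T, volume.real (EE q (γ q) (δ q) ∩ EE r (γ r) (δ r)) := by
    rw [integral_finsetSum _ fun q _ => integrable_finsetSum _ fun r _ => iJ q r]
    refine sum_congr rfl fun q _ => ?_
    rw [integral_finsetSum _ fun r _ => iJ q r]
    refine sum_congr rfl fun r _ => ?_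
    rw [eI, integral_indicator_const _ ((EE_meas _ _ _).inter (EE_meas _ _ _))]
    simp
  rw [integral_indicator_const _ hU, integral_add' (i1.sub i2) (integrable_const _),
    integral_sub' i1 i2, e1, e2] at h2
  have hu : volume.real (Set.univ : Set UnitAddCircle) = 1 := by
    rw [Measure.real, UnitAddCircle.measure_univ, ENNReal.toReal_one]
  simp only [integral_const, hu, smul_eq_mul, one_mul] at h2
  let a : ℕ → ℕ → ℝ := fun q r => if q < r then 2 * δ r * ((Nat.gcd q r : ℝ) / r) else 0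
  have h3 : ∀ q ∈ T, ∀ r ∈ T, volume.real (EE q (γ q) (δ q) ∩ EE r (γ r) (δ r)) ≤
      2 * δ q * (2 * δ r) + (if q = r then 2 * δ r else 0) + a q r + a r q := fun q hq r hr => by
    have b1 := h0 q
    have b2 := h0 r
    rcases lt_trichotomy q r with h | h | h
    · have := overlap q (hT r hr) (γ q) (γ r) (δ r) b1
      rw [EE_vol (hT r hr) _ b2 (h1 r)] at this
      simp only [a, if_pos h, if_neg h.ne, if_neg h.not_gt]
      linarith
    · subst h
      rw [Set.inter_self, EE_vol (hT q hq) _ b1 (h1 q)]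
      simp only [a, lt_irrefl, if_false, if_true]
      nlinarith
    · have := overlap r (hT q hq) (γ r) (γ q) (δ q) b2
      rw [EE_vol (hT q hq) _ b1 (h1 q), Set.inter_comm] at this
      simp only [a, if_pos h, if_neg h.ne', if_neg h.not_gt]
      linarith
  have h4 := sum_le_sum fun q hq => sum_le_sum (h3 q hq)
  simp only [sum_add_distrib, ← sum_mul_sum, sum_ite_eq, ← hM] at h4
  rw [sum_comm (f := fun q r => a q r), sum_congr rfl fun q hq => if_pos hq, ← hM] at h4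
  have e3 : ∑ r ∈ T, 2 * δ r * (1 + 2 * ∑ q ∈ T.filter (· < r), (Nat.gcd q r : ℝ) / r) =
      M + 2 * ∑ r ∈ T, ∑ q ∈ T, a q r := by
    rw [hM, mul_sum, ← sum_add_distrib]
    refine sum_congr rfl fun r _ => ?_
    simp only [a]
    rw [← sum_filter, ← mul_sum]
    ring
  rw [e3]
  nlinarith

theorem crit (γ ψ : ℕ → ℝ) (h0 : ∀ q, 0 ≤ ψ q)
    (h : ∀ ε : ℝ, 0 < ε → ∀ N : ℕ, ∃ T : Finset ℕ, (∀ q ∈ T, N < q) ∧
      ∑ r ∈ T, min (ψ r) 1 * (1 + 2 * ∑ q ∈ T.filter (· < r), (Nat.gcd q r : ℝ) / r) <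
        ε * (∑ r ∈ T, min (ψ r) 1) ^ 2) :
    ∀ᵐ x : ℝ, {q : ℕ | 0 < q ∧ |q * x - γ q - round (q * x - γ q)| < ψ q}.Infinite := by
  let δ : ℕ → ℝ := fun q => min (ψ q) 1 / 2
  have d0 : ∀ q, 0 ≤ δ q := fun q => div_nonneg (le_min (h0 q) zero_le_one) zero_le_two
  have d1 : ∀ q, 2 * δ q = min (ψ q) 1 := fun q => by simp only [δ]; ring
  have d2 : ∀ q, 2 * δ q ≤ 1 := fun q => (d1 q).trans_le (min_le_right _ _)
  have a1 : ∀ N : ℕ, ∀ᵐ x : UnitAddCircle, ∃ q, N < q ∧ x ∈ EE q (γ q) (δ q) := fun N => by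
    rw [ae_iff, ← measureReal_eq_zero_iff (measure_ne_top _ _)]
    refine le_antisymm (le_of_forall_pos_le_add fun ε hε => ?_) measureReal_nonneg
    obtain ⟨T, hT, hlt⟩ := h ε hε N
    have h2 := second T (fun q hq => (Nat.zero_le N).trans_lt (hT q hq)) γ δ d0 d2
    simp only [d1] at h2
    have h3 := h2.trans_lt hlt
    rw [mul_comm] at h3
    rw [zero_add]
    refine le_trans (measureReal_mono ?_ (measure_ne_top _ _))
      (lt_of_mul_lt_mul_right h3 (sq_nonneg _)).le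
    intro x hx hx'
    apply hx
    obtain ⟨q, hq, hx⟩ := Set.mem_iUnion₂.1 hx'
    exact ⟨q, hT q hq, hx⟩
  have a2 : ∀ q : ℕ, ∀ᵐ x : UnitAddCircle, 0 < q → δ q = 0 → x ∉ EE q (γ q) (δ q) := fun q => by
    by_cases hq : 0 < q ∧ δ q = 0
    · have := EE_vol hq.1 (γ q) (d0 q) (d2 q)
      rw [show 2 * δ q = 0 by rw [hq.2, mul_zero], measureReal_eq_zero_iff (measure_ne_top _ _)]
        at this
      filter_upwards [measure_eq_zero_iff_ae_notMem.1 this] with x hx _ _ using hx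
    · exact Eventually.of_forall fun x b1 b2 => absurd ⟨b1, b2⟩ hq
  have a3 := (ae_all_iff.2 a1).and (ae_all_iff.2 a2)
  rw [← Measure.restrict_univ (μ := (volume : Measure ℝ)), ← iUnion_Ioc_intCast,
    ae_restrict_iUnion_iff]
  intro n
  filter_upwards [(UnitAddCircle.measurePreserving_mk n).quasiMeasurePreserving.ae a3] with x hx
  refine Set.infinite_of_forall_exists_gt fun N => ?_
  obtain ⟨q, hq, hx1⟩ := hx.1 N
  have hq0 : 0 < q := (Nat.zero_le N).trans_lt hq
  refine ⟨q, ⟨hq0, ?_⟩, hq⟩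
  have b1 : 0 < δ q := (d0 q).lt_of_ne fun e => hx.2 q hq0 e.symm hx1
  simp only [EE, Set.mem_ofPred_eq, ← AddCircle.coe_zsmul, ← AddCircle.coe_sub,
    UnitAddCircle.norm_eq, zsmul_eq_mul, Int.cast_natCast] at hx1
  linarith [d1 q, min_le_left (ψ q) 1]

theorem thin (γ ψ : ℕ → ℝ) (h0 : ∀ q, 0 ≤ ψ q) (S : Set ℕ) (C : ℝ)
    (hS : ∀ r ∈ S, ∑ q ∈ Ico 1 r, S.indicator (fun q => (Nat.gcd q r : ℝ)) q ≤ C * r)
    (hd : ¬Summable (S.indicator ψ)) :
    ∀ᵐ x : ℝ, {q : ℕ | 0 < q ∧ |q * x - γ q - round (q * x - γ q)| < ψ q}.Infinite := by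
  classical
  refine crit γ ψ h0 fun ε hε N => ?_
  let f : ℕ → ℝ := S.indicator fun q => min (ψ q) 1
  have f0 : ∀ q, 0 ≤ f q := fun q =>
    Set.indicator_nonneg (fun q _ => le_min (h0 q) zero_le_one) q
  have h1 : ¬Summable f := fun hs => hd (hs.congr_atTop ?_)
  swap
  · filter_upwards [hs.tendsto_atTop_zero.eventually (gt_mem_nhds zero_lt_one)] with q hq
    by_cases h : q ∈ S
    · simp only [f, Set.indicator_of_mem h] at hq ⊢
      exact min_eq_left ((min_lt_iff.1 hq).resolve_right (lt_irrefl _)).le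
    · simp only [f, Set.indicator_of_notMem h]
  obtain ⟨Q, hQ, hNQ⟩ := ((((not_summable_iff_tendsto_nat_atTop_of_nonneg f0).1 h1).eventually_gt_atTop
    (∑ i ∈ range (N + 1), f i + (1 + 2 * |C|) / ε)).and (eventually_ge_atTop (N + 1))).exists
  have e : ∑ r ∈ (Ico (N + 1) Q).filter (· ∈ S), min (ψ r) 1 =
      ∑ i ∈ range Q, f i - ∑ i ∈ range (N + 1), f i := by
    rw [← sum_Ico_eq_sub _ hNQ, sum_filter]
    exact sum_congr rfl fun q _ => by simp only [f, Set.indicator_apply]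
  refine ⟨(Ico (N + 1) Q).filter (· ∈ S), fun q hq => (mem_Ico.1 (mem_filter.1 hq).1).1, ?_⟩
  set T := (Ico (N + 1) Q).filter (· ∈ S) with hT
  have h2 : ∀ r ∈ T, min (ψ r) 1 * (1 + 2 * ∑ q ∈ T.filter (· < r), (Nat.gcd q r : ℝ) / r) ≤
      min (ψ r) 1 * (1 + 2 * |C|) := fun r hr => by
    have hr0 : (0 : ℝ) < r := by
      have := (mem_Ico.1 (mem_filter.1 hr).1).1
      exact_mod_cast (by omega : 0 < r)
    refine mul_le_mul_of_nonneg_left ?_ (le_min (h0 r) zero_le_one)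
    have b1 : ∑ q ∈ T.filter (· < r), (Nat.gcd q r : ℝ) ≤
        ∑ q ∈ Ico 1 r, S.indicator (fun q => (Nat.gcd q r : ℝ)) q := by
      rw [← sum_congr rfl fun q (hq : q ∈ T.filter (· < r)) => Set.indicator_of_mem
        (mem_filter.1 (mem_filter.1 hq).1).2 fun q => (Nat.gcd q r : ℝ)]
      refine sum_le_sum_of_subset_of_nonneg (fun q hq => ?_) fun q _ _ =>
        Set.indicator_nonneg (fun _ _ => Nat.cast_nonneg _) q
      have := (mem_Ico.1 (mem_filter.1 (mem_filter.1 hq).1).1).1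
      exact mem_Ico.2 ⟨by omega, (mem_filter.1 hq).2⟩
    have b2 := (b1.trans (hS r (mem_filter.1 hr).2)).trans
      (mul_le_mul_of_nonneg_right (le_abs_self C) hr0.le)
    rw [← sum_div, add_le_add_iff_left, mul_le_mul_iff_right₀ zero_lt_two, div_le_iff₀ hr0]
    exact b2
  refine (sum_le_sum h2).trans_lt ?_
  rw [← sum_mul]
  have h3 : (1 + 2 * |C|) / ε < ∑ r ∈ T, min (ψ r) 1 := by rw [e]; linarith
  have h4 : 0 < (1 + 2 * |C|) / ε := by positivity
  rw [div_lt_iff₀ hε] at h3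
  have h5 : 0 < ∑ r ∈ T, min (ψ r) 1 := by
    have : 0 < (∑ r ∈ T, min (ψ r) 1) * ε := lt_of_lt_of_le (by positivity) h3.le
    exact pos_of_mul_pos_left this hε.le
  nlinarith

theorem gcd_sum (r : ℕ) (hr : 0 < r) : ∑ q ∈ Ico 1 r, Nat.gcd q r ≤ r.divisors.card * r := by
  have h1 : ∀ q ∈ Ioc 0 r, Nat.gcd q r ≤ ∑ g ∈ r.divisors, if g ∣ q then g else 0 := fun q _ => by
    refine le_trans ?_ (single_le_sum (f := fun g => if g ∣ q then g else 0)
      (fun _ _ => Nat.zero_le _) (Nat.mem_divisors.2 ⟨Nat.gcd_dvd_right q r, hr.ne'⟩))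
    simp only [if_pos (Nat.gcd_dvd_left q r), le_refl]
  refine (sum_le_sum_of_subset (fun q hq => ?_)).trans ((sum_le_sum h1).trans ?_)
  · have := mem_Ico.1 hq
    exact mem_Ioc.2 ⟨by omega, this.2.le⟩
  · rw [sum_comm, ← smul_eq_mul]
    refine sum_le_card_nsmul _ _ _ fun g _ => ?_
    rw [← sum_filter, sum_const, Nat.Ioc_filter_dvd_card_eq_div, smul_eq_mul]
    exact Nat.div_mul_le_self r g

theorem few (γ ψ : ℕ → ℝ) (h0 : ∀ q, 0 ≤ ψ q) (K : ℕ) (hK : ∀ q, ψ q ≠ 0 → q.divisors.card ≤ K)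
    (hd : ¬Summable fun q : ℕ => (Nat.totient q : ℝ) / q * ψ q) :
    ∀ᵐ x : ℝ, {q : ℕ | 0 < q ∧ |q * x - γ q - round (q * x - γ q)| < ψ q}.Infinite := by
  refine thin γ ψ h0 {q | 0 < q ∧ q.divisors.card ≤ K} K (fun r hr => ?_) fun hs => hd ?_
  · refine (sum_le_sum fun q _ => Set.indicator_le_self' (fun _ _ => Nat.cast_nonneg _) q).trans ?_
    exact_mod_cast (gcd_sum r hr.1).trans (Nat.mul_le_mul_right _ hr.2)
  · refine hs.of_nonneg_of_le (fun q => mul_nonneg (by positivity) (h0 q)) fun q => ?_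
    by_cases h : q ∈ {q | 0 < q ∧ q.divisors.card ≤ K}
    · rw [Set.indicator_of_mem h]
      exact mul_le_of_le_one_left (h0 q) (div_le_one_of_le₀ (by exact_mod_cast Nat.totient_le q)
        (Nat.cast_nonneg _))
    · rw [Set.indicator_of_notMem h]
      by_cases h2 : ψ q = 0
      · simp [h2]
      · have : q = 0 := by
          by_contra h3
          exact h ⟨Nat.pos_of_ne_zero h3, hK q h2⟩
        simp [this]

end Vale.Agent.P028T
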