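import Mathlib

namespace Vale.Agent.P028

open MeasureTheory Finset Real

/-- the approximation set on the circle -/
def Aq (q : ℕ) (α : UnitAddCircle) (a : ℝ) : Set UnitAddCircle := {x | ‖q • x - α‖ < a}

end Vale.Agent.P028
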