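import Vale.Agent.P028.Defs

namespace Vale.Agent.P028

open MeasureTheory Finset Real

theorem dv_lt {p : ℕ} (hp : p.Prime) : 1 / √(p : ℝ) ≤ 3 / 4 := by
  have h2 : (2 : ℝ) ≤ p := by exact_mod_cast hp.two_le
  have h3 : (4 / 3 : ℝ) ≤ √(p : ℝ) := Real.le_sqrt_of_sq_le (by linarith)
  rw [div_le_iff₀ (by linarith)]
  linarith

theorem dv_prod (q : ℕ) (hq : 0 < q) :
    ∑ b ∈ q.divisors, 1 / √(b : ℝ) ≤ ∏ p ∈ q.primeFactors, (1 - 1 / √(p : ℝ))⁻¹ := by
  induction q using Nat.recOnPosPrimePosCoprime with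
  | zero => omega
  | one => simp
  | prime_pow p n hp hn =>
    rw [Nat.sum_divisors_prime_pow hp, Nat.primeFactors_prime_pow hn.ne' hp, Finset.prod_singleton]
    have h0 : 0 ≤ 1 / √(p : ℝ) := by positivity
    have h1 : 1 / √(p : ℝ) < 1 := by linarith [dv_lt hp]
    have e : ∀ i : ℕ, 1 / √((p ^ i : ℕ) : ℝ) = (1 / √(p : ℝ)) ^ i := fun i => by
      rw [Nat.cast_pow, one_div_pow, Real.sqrt_eq_rpow, Real.sqrt_eq_rpow,
        ← Real.rpow_natCast, ← Real.rpow_natCast, ← Real.rpow_mul (by positivity),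
        ← Real.rpow_mul (by positivity), mul_comm]
    simp only [e]
    rw [← tsum_geometric_of_lt_one h0 h1]
    exact (summable_geometric_of_lt_one h0 h1).sum_le_tsum _ fun i _ => by positivity
  | coprime a b ha hb hab iha ihb =>
    rw [hab.primeFactors_mul, Finset.prod_union hab.disjoint_primeFactors]
    refine le_trans ?_ (mul_le_mul (iha (by omega)) (ihb (by omega))
      (Finset.sum_nonneg fun _ _ => by positivity)
      (le_trans (Finset.sum_nonneg fun _ _ => by positivity) (iha (by omega))))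
    rw [Finset.sum_mul_sum, ← Finset.sum_product', Nat.divisors_mul, Finset.mul_def]
    refine (Finset.sum_image_le_of_nonneg fun _ _ => by positivity).trans (le_of_eq ?_)
    refine Finset.sum_congr rfl fun x _ => ?_
    rw [Nat.cast_mul, Real.sqrt_mul (by positivity), one_div_mul_one_div]

theorem div_sum {c : ℝ} (hc : 1 < c) : ∃ C : ℝ, 0 ≤ C ∧ ∀ q : ℕ, 0 < q →
    ∑ b ∈ q.divisors, 1 / √(b : ℝ) ≤ C * c ^ q.primeFactors.card := by
  have hδ : 0 < 1 - 1 / c := by
    rw [sub_pos, div_lt_one (by linarith)]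
    exact hc
  obtain ⟨P, hP⟩ := exists_nat_ge ((1 / (1 - 1 / c)) ^ 2)
  refine ⟨4 ^ P, by positivity, fun q hq => (dv_prod q hq).trans ?_⟩
  have h1 : ∀ p ∈ q.primeFactors, (1 - 1 / √(p : ℝ))⁻¹ ≤ (if p < P then 4 else 1) * c := by
    intro p hp
    have h2 := dv_lt (Nat.prime_of_mem_primeFactors hp)
    split_ifs with h
    · refine le_trans ?_ (show (4 : ℝ) ≤ 4 * c by linarith)
      rw [inv_le_comm₀ (by linarith) (by norm_num)]
      linarith
    · have h3 : (P : ℝ) ≤ p := by exact_mod_cast not_lt.1 h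
      have h4 : 1 / (1 - 1 / c) ≤ √(p : ℝ) := Real.le_sqrt_of_sq_le (hP.trans h3)
      have h5 : 1 / √(p : ℝ) ≤ 1 - 1 / c := by
        rw [one_div_le (lt_of_lt_of_le (by positivity) h4) hδ]
        exact h4
      rw [one_mul, inv_le_comm₀ (by linarith) (by linarith), ← one_div]
      linarith
  refine (Finset.prod_le_prod (fun p hp => ?_) h1).trans ?_
  · have h2 := dv_lt (Nat.prime_of_mem_primeFactors hp)
    exact inv_nonneg.2 (by linarith)
  · rw [Finset.prod_mul_distrib, Finset.prod_const, Finset.prod_ite, Finset.prod_const,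
      Finset.prod_const_one, mul_one]
    refine mul_le_mul_of_nonneg_right (pow_le_pow_right₀ (by norm_num) ?_) (by positivity)
    refine le_trans (Finset.card_le_card fun p hp => ?_) (Finset.card_range P).le
    exact Finset.mem_range.2 (Finset.mem_filter.1 hp).2

end Vale.Agent.P028
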