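import Vale.Agent.P028.Defs

namespace Vale.Agent.P028

open MeasureTheory Finset Real

theorem second_moment {Ω : Type} [MeasurableSpace Ω] (μ : Measure Ω) [IsProbabilityMeasure μ]
    (T : Finset ℕ) {A : ℕ → Set Ω} (hA : ∀ q, MeasurableSet (A q)) {e : ℕ → ℕ → ℝ}
    (h : ∀ q ∈ T, ∀ r ∈ T, μ.real (A q ∩ A r) ≤ μ.real (A q) * μ.real (A r) + e q r) :
    μ.real (⋃ q ∈ T, A q)ᶜ * (∑ q ∈ T, μ.real (A q)) ^ 2 ≤ ∑ q ∈ T, ∑ r ∈ T, e q r := by
  have hU : MeasurableSet (⋃ q ∈ T, A q)ᶜ := (T.measurableSet_biUnion fun q _ => hA q).compl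
  have hi : ∀ {B : Set Ω}, MeasurableSet B → ∀ c : ℝ, Integrable (B.indicator fun _ => c) μ :=
    fun hB c => (integrable_const c).indicator hB
  have hv : ∀ {B : Set Ω}, MeasurableSet B → ∀ c : ℝ,
      ∫ x, B.indicator (fun _ => c) x ∂μ = μ.real B * c := fun hB c => by
    rw [integral_indicator_const _ hB, smul_eq_mul]
  set g : ℕ → ℕ → Ω → ℝ := fun q r x => (A q ∩ A r).indicator (fun _ => (1 : ℝ)) x -
    (A q).indicator (fun _ => μ.real (A r)) x - (A r).indicator (fun _ => μ.real (A q)) x +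
    μ.real (A q) * μ.real (A r) with hg
  have gi : ∀ q r, Integrable (g q r) μ := fun q r =>
    (((hi ((hA q).inter (hA r)) _).sub (hi (hA q) _)).sub (hi (hA r) _)).add (integrable_const _)
  have gv : ∀ q r, ∫ x, g q r x ∂μ = μ.real (A q ∩ A r) - μ.real (A q) * μ.real (A r) := by
    intro q r
    simp only [hg]
    rw [integral_add, integral_sub, integral_sub, hv (hA q), hv (hA r), hv ((hA q).inter (hA r))]
    rotate_left
    · exact hi ((hA q).inter (hA r)) _
    · exact hi (hA q) _
    · exact (hi ((hA q).inter (hA r)) _).sub (hi (hA q) _)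
    · exact hi (hA r) _
    · exact ((hi ((hA q).inter (hA r)) _).sub (hi (hA q) _)).sub (hi (hA r) _)
    · exact integrable_const _
    simp only [integral_const, probReal_univ, smul_eq_mul]
    ring
  have gp : ∀ q r x, g q r x = ((A q).indicator (fun _ => (1 : ℝ)) x - μ.real (A q)) *
      ((A r).indicator (fun _ => (1 : ℝ)) x - μ.real (A r)) := by
    intro q r x
    simp only [hg]
    by_cases h1 : x ∈ A q <;> by_cases h2 : x ∈ A r <;> simp [h1, h2] <;> ring
  rw [← hv hU]
  refine le_trans (integral_mono (g := fun x => ∑ q ∈ T, ∑ r ∈ T, g q r x) (hi hU _)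
    (integrable_finsetSum _ fun q _ => integrable_finsetSum _ fun r _ => gi q r) fun x => ?_) ?_
  · simp only [gp, ← Finset.sum_mul_sum, ← pow_two]
    by_cases hx : x ∈ (⋃ q ∈ T, A q)ᶜ
    · rw [Set.indicator_of_mem hx, ← neg_sq, ← Finset.sum_neg_distrib]
      refine le_of_eq (congrArg (· ^ 2) (Finset.sum_congr rfl fun q hq => ?_))
      rw [Set.indicator_of_notMem fun h' => hx (Set.mem_biUnion hq h'), zero_sub]
    · rw [Set.indicator_of_notMem hx]
      exact sq_nonneg _
  · rw [integral_finsetSum _ fun q _ => integrable_finsetSum _ fun r _ => gi q r]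
    refine Finset.sum_le_sum fun q hq => ?_
    rw [integral_finsetSum _ fun r _ => gi q r]
    refine Finset.sum_le_sum fun r hr => ?_
    rw [gv]
    linarith [h q hq r hr]

end Vale.Agent.P028
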