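import Vale.Agent.P028.Wt

namespace Vale.Agent.P028

open MeasureTheory Finset Real

theorem orient_fib {w : ℕ → ℝ} {C : ℝ} (hw : ∀ n, 0 ≤ w n)
    (hcount : ∀ (y : ℝ) (S : Finset ℕ), 0 ≤ y → (∀ n ∈ S, 0 < n ∧ w n ≤ y) → (#S : ℝ) ≤ C * y)
    (T : Finset ℕ) (hT : ∀ q ∈ T, 0 < q) {q : ℕ} (hq : 0 < q) :
    ∑ r ∈ T.filter (fun r => w (r / Nat.gcd q r) ≤ w (q / Nat.gcd q r)),
      ((Nat.gcd q r : ℕ) : ℝ) / q ≤ C * ∑ d ∈ q.divisors, w d / d := by
  obtain ⟨F, hF⟩ : ∃ F, F = T.filter (fun r => w (r / Nat.gcd q r) ≤ w (q / Nat.gcd q r)) :=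
    ⟨_, rfl⟩
  rw [← hF]
  have hmap : ∀ r ∈ F, q / Nat.gcd q r ∈ q.divisors := fun r _ =>
    Nat.mem_divisors.2 ⟨Nat.div_dvd_of_dvd (Nat.gcd_dvd_left q r), hq.ne'⟩
  rw [← Finset.sum_fiberwise_of_maps_to hmap, Finset.mul_sum]
  refine Finset.sum_le_sum fun d hd => ?_
  have hd0 : 0 < d := Nat.pos_of_mem_divisors hd
  obtain ⟨G, hG⟩ : ∃ G, G = F.filter (fun r => q / Nat.gcd q r = d) := ⟨_, rfl⟩
  rw [← hG]
  have hGm : ∀ r ∈ G, (r ∈ T ∧ w (r / Nat.gcd q r) ≤ w (q / Nat.gcd q r)) ∧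
      q / Nat.gcd q r = d := fun r hr => by
    rw [hG, hF, Finset.mem_filter, Finset.mem_filter] at hr
    exact hr
  have hg : ∀ r ∈ G, d * Nat.gcd q r = q := fun r hr => by
    rw [← (hGm r hr).2]; exact Nat.div_mul_cancel (Nat.gcd_dvd_left q r)
  have hdR : (0 : ℝ) < d := by exact_mod_cast hd0
  have hqR : (0 : ℝ) < q := by exact_mod_cast hq
  have h1 : ∀ r ∈ G, ((Nat.gcd q r : ℕ) : ℝ) / q = 1 / d := fun r hr => by
    have e : (d : ℝ) * (Nat.gcd q r : ℕ) = q := by exact_mod_cast hg r hr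
    rw [div_eq_div_iff hqR.ne' hdR.ne', one_mul, mul_comm, e]
  have hinj : Set.InjOn (fun r => r / Nat.gcd q r) (G : Set ℕ) := fun r hr s hs e => by
    have e1 : Nat.gcd q r = Nat.gcd q s :=
      Nat.eq_of_mul_eq_mul_left hd0 ((hg r hr).trans (hg s hs).symm)
    have e2 : r / Nat.gcd q r = s / Nat.gcd q s := e
    calc r = r / Nat.gcd q r * Nat.gcd q r := (Nat.div_mul_cancel (Nat.gcd_dvd_right q r)).symm
      _ = s / Nat.gcd q s * Nat.gcd q s := by rw [e2, e1]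
      _ = s := Nat.div_mul_cancel (Nat.gcd_dvd_right q s)
  have h2 : (#G : ℝ) ≤ C * w d := by
    rw [← Finset.card_image_of_injOn hinj]
    refine hcount _ _ (hw d) fun n hn => ?_
    obtain ⟨r, hr, rfl⟩ := Finset.mem_image.1 hn
    obtain ⟨⟨a, b⟩, c⟩ := hGm r hr
    refine ⟨Nat.div_pos (Nat.le_of_dvd (hT r a) (Nat.gcd_dvd_right q r))
      (Nat.gcd_pos_of_pos_left r hq), ?_⟩
    rw [← c]; exact b
  rw [Finset.sum_congr rfl h1, Finset.sum_const, nsmul_eq_mul, mul_one_div, ← mul_div_assoc]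
  exact div_le_div_of_nonneg_right h2 hdR.le

theorem orient {c : ℝ} (hc : 2 < c) : ∃ C : ℝ, 0 ≤ C ∧ ∀ (T : Finset ℕ) (ψ : ℕ → ℝ),
    (∀ q ∈ T, 0 < q) → (∀ q, 0 ≤ ψ q) →
    ∑ q ∈ T, ∑ r ∈ T, min (ψ q * (Nat.gcd q r) / q) (ψ r * (Nat.gcd q r) / r) ≤
      C * ∑ q ∈ T, ψ q * c ^ q.primeFactors.card := by
  obtain ⟨w, C, hC, hw, hcount, hsum⟩ := weight hc
  refine ⟨2 * (C * C), by positivity, fun T ψ hT hψ => ?_⟩
  obtain ⟨A, hA⟩ : ∃ A : ℕ → ℕ → ℝ, A = fun q r =>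
      if w (r / Nat.gcd q r) ≤ w (q / Nat.gcd q r) then ψ q * ((Nat.gcd q r : ℕ) / q) else 0 :=
    ⟨_, rfl⟩
  have hA0 : ∀ q r, 0 ≤ A q r := fun q r => by
    rw [hA]
    dsimp only
    split_ifs
    · have := hψ q
      positivity
    · exact le_rfl
  have h1 : ∀ q r, min (ψ q * (Nat.gcd q r) / q) (ψ r * (Nat.gcd q r) / r) ≤ A q r + A r q := by
    intro q r
    rcases le_total (w (r / Nat.gcd q r)) (w (q / Nat.gcd q r)) with h | h
    · have e : A q r = ψ q * (Nat.gcd q r) / q := by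
        rw [hA]
        dsimp only
        rw [if_pos h, mul_div_assoc]
      have := hA0 r q
      exact (min_le_left _ _).trans (by linarith)
    · have e : A r q = ψ r * (Nat.gcd q r) / r := by
        rw [hA]
        dsimp only
        rw [Nat.gcd_comm r q, if_pos h, mul_div_assoc]
      have := hA0 q r
      exact (min_le_right _ _).trans (by linarith)
  have h2 : ∀ q ∈ T, ∑ r ∈ T, A q r ≤ C * C * (ψ q * c ^ q.primeFactors.card) := fun q hq => by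
    have e : ∑ r ∈ T, A q r = ψ q * ∑ r ∈ T.filter (fun r => w (r / Nat.gcd q r) ≤
        w (q / Nat.gcd q r)), ((Nat.gcd q r : ℕ) : ℝ) / q := by
      rw [hA, Finset.mul_sum, Finset.sum_filter]
    have a := orient_fib hw hcount T hT (hT q hq)
    have b := mul_le_mul_of_nonneg_left (hsum q (hT q hq)) hC
    rw [e]
    calc _ ≤ ψ q * (C * (C * c ^ q.primeFactors.card)) :=
          mul_le_mul_of_nonneg_left (a.trans b) (hψ q)
      _ = _ := by ring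
  have h3 : ∑ q ∈ T, ∑ r ∈ T, A q r ≤ C * C * ∑ q ∈ T, ψ q * c ^ q.primeFactors.card := by
    rw [Finset.mul_sum]
    exact Finset.sum_le_sum h2
  calc _ ≤ ∑ q ∈ T, ∑ r ∈ T, (A q r + A r q) :=
        Finset.sum_le_sum fun q _ => Finset.sum_le_sum fun r _ => h1 q r
    _ = ∑ q ∈ T, ∑ r ∈ T, A q r + ∑ q ∈ T, ∑ r ∈ T, A r q := by
        simp only [Finset.sum_add_distrib]
    _ = 2 * ∑ q ∈ T, ∑ r ∈ T, A q r := by
        rw [Finset.sum_comm (f := fun q r => A r q), two_mul]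
    _ ≤ _ := by linarith

end Vale.Agent.P028
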