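import Vale.Agent.P028.Ov
import Vale.Agent.P028.Mom
import Vale.Agent.P028.Ori
import Vale.Agent.P028.Blk

namespace Vale.Agent.P028

open MeasureTheory Finset Real Filter

theorem tail_null {c : ℝ} (hc : 2 < c) (γ : ℕ → UnitAddCircle) {ψ : ℕ → ℝ} (hψ : ∀ q, 0 ≤ ψ q)
    (h : ¬Summable fun q : ℕ => ψ q / c ^ q.primeFactors.card) {Q : ℕ} (hQ : 0 < Q)
    (h2 : ∀ q, Q ≤ q → ψ q ≤ 1 / 2) : volume {x | ∀ q, Q ≤ q → x ∉ Aq q (γ q) (ψ q)} = 0 := by
  rw [← measureReal_eq_zero_iff]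
  set m := volume.real {x | ∀ q, Q ≤ q → x ∉ Aq q (γ q) (ψ q)} with hm
  refine le_antisymm (not_lt.1 fun h0 => ?_) measureReal_nonneg
  obtain ⟨C, hC, hO⟩ := orient (c := (2 + c) / 2) (by linarith)
  obtain ⟨k, T, hT, hS⟩ := block (c' := (2 + c) / 2) (by linarith) (by linarith) hψ _ h Q
    (C / m + 1)
  have hp : ∀ q ∈ T, 0 < q := fun q hq => hQ.trans_le (hT q hq).1
  have hv : ∀ q ∈ T, volume.real (Aq q (γ q) (ψ q)) = 2 * ψ q := fun q hq =>
    vol_Aq (hp q hq) _ (hψ q) (h2 q (hT q hq).1)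
  have : IsProbabilityMeasure (volume : Measure UnitAddCircle) := ⟨UnitAddCircle.measure_univ⟩
  have h3 := second_moment volume T (A := fun q => Aq q (γ q) (ψ q)) (fun q => meas_Aq _ _ _)
    (e := fun q r => 2 * min (ψ q * (Nat.gcd q r) / q) (ψ r * (Nat.gcd q r) / r))
    fun q hq r hr => by
      have a1 := overlap (hp q hq) (hp r hr) (γ q) (γ r) (hψ q) (h2 q (hT q hq).1) (hψ r)
      have a2 := overlap (hp r hr) (hp q hq) (γ r) (γ q) (hψ r) (h2 r (hT r hr).1) (hψ q)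
      rw [Set.inter_comm, Nat.gcd_comm] at a2
      rw [hv q hq, hv r hr]
      rcases min_choice (ψ q * (Nat.gcd q r) / q) (ψ r * (Nat.gcd q r) / r) with e | e <;> rw [e]
      · exact a1.trans_eq (by ring)
      · exact a2.trans_eq (by ring)
  have h4 : m ≤ volume.real (⋃ q ∈ T, Aq q (γ q) (ψ q))ᶜ := measureReal_mono fun x hx => by
    simp only [Set.mem_compl_iff, Set.mem_iUnion, not_exists]
    exact fun q hq => hx q (hT q hq).1
  have h5 := hO T ψ hp hψ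
  rw [show ∑ q ∈ T, ψ q * ((2 + c) / 2) ^ q.primeFactors.card =
      (∑ q ∈ T, ψ q) * ((2 + c) / 2) ^ k by
    rw [sum_mul]; exact sum_congr rfl fun q hq => by rw [(hT q hq).2]] at h5
  simp only [← mul_sum] at h3
  rw [sum_congr rfl hv, ← mul_sum] at h3
  set S := ∑ q ∈ T, ψ q
  set u := ((2 + c) / 2) ^ k
  have hu : 0 < u := pow_pos (by linarith) _
  have h6 : (C + m) * u < m * S := by
    have := mul_lt_mul_of_pos_left hS h0
    rwa [← mul_assoc, mul_add, mul_div_cancel₀ _ h0.ne', mul_one] at this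
  have hS0 : 0 < S := by
    have : 0 < (C + m) * u := by positivity
    exact pos_of_mul_pos_left (this.trans h6 |>.trans_eq (mul_comm _ _)) h0.le
  have h7 : m * (2 * S) ^ 2 ≤ 2 * (C * (S * u)) :=
    (mul_le_mul_of_nonneg_right h4 (sq_nonneg _)).trans (h3.trans (by linarith))
  have h8 := mul_lt_mul_of_pos_left h6 hS0
  have h9 : 0 ≤ C * (S * u) := by positivity
  have h10 : 0 < m * (S * u) := by positivity
  nlinarith

theorem full {c : ℝ} (hc : 2 < c) (γ : ℕ → UnitAddCircle) {ψ : ℕ → ℝ} (hψ : ∀ q, 0 ≤ ψ q)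
    (h : ¬Summable fun q : ℕ => ψ q / c ^ q.primeFactors.card) :
    volume {x : UnitAddCircle | ¬∃ᶠ q : ℕ in atTop, x ∈ Aq q (γ q) (ψ q)} = 0 := by
  by_cases h1 : ∃ᶠ q in atTop, 1 / 2 < ψ q
  · refine measure_mono_null (fun x hx => hx (h1.mono fun q hq => ?_)) measure_empty
    refine lt_of_le_of_lt ?_ hq
    simpa using AddCircle.norm_le_half_period (1 : ℝ) (x := q • x - γ q) one_ne_zero
  · obtain ⟨Q, hQ⟩ := eventually_atTop.1 (not_frequently.1 h1)
    refine measure_mono_null (t := ⋃ N : ℕ, {x | ∀ q, N + Q + 1 ≤ q → x ∉ Aq q (γ q) (ψ q)})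
      (fun x hx => ?_) (measure_iUnion_null fun N => tail_null hc γ hψ h (by omega)
        fun q hq => not_lt.1 (hQ q (by omega)))
    obtain ⟨N, hN⟩ := eventually_atTop.1 (not_frequently.1 hx)
    exact Set.mem_iUnion.2 ⟨N, fun q hq => hN q (by omega)⟩

theorem full_real {c : ℝ} (hc : 2 < c) (γ : ℕ → ℝ) {ψ : ℕ → ℝ} (hψ : ∀ q, 0 ≤ ψ q)
    (h : ¬Summable fun q : ℕ => ψ q / c ^ q.primeFactors.card) :
    volume {x : ℝ | {q : ℕ | 0 < q ∧ ∃ a : ℤ, |q * x - a - γ q| < ψ q}.Infinite}ᶜ = 0 := by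
  refine measure_mono_null ?_ (ae_real (full hc (fun q => γ q) hψ h))
  intro x hx hx'
  refine hx ?_
  refine Nat.frequently_atTop_iff_infinite.1 ((hx'.and_eventually (eventually_gt_atTop 0)).mono
    fun q hq => ⟨hq.2, round (q * x - γ q), ?_⟩)
  have h1 : ‖q • (x : UnitAddCircle) - (γ q : UnitAddCircle)‖ < ψ q := hq.1
  rw [← AddCircle.coe_nsmul, ← AddCircle.coe_sub, UnitAddCircle.norm_eq, nsmul_eq_mul] at h1
  rwa [sub_right_comm]

end Vale.Agent.P028
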