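import Vale.Agent.P028.Defs

namespace Vale.Agent.P028

open MeasureTheory Finset Real

theorem cnt_pts {m s : ℕ} (hm : 0 < m) (hs : Nat.Coprime s m) (y : UnitAddCircle) {b : ℝ}
    (hb : 0 ≤ b) :
    (#((range m).filter fun j : ℕ => ‖y + ((s * j / m : ℝ) : UnitAddCircle)‖ < b) : ℝ) ≤ 2 * b * m + 1 := by
  obtain ⟨t, rfl⟩ := QuotientAddGroup.mk_surjective y
  have hm' : (0 : ℝ) < m := Nat.cast_pos.2 hm
  have h1 : #{j ∈ range m | ‖(t : UnitAddCircle) + ((s * (j : ℕ) / m : ℝ) : UnitAddCircle)‖ < b} ≤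
      #(Icc ⌈-(b * m) - t * m⌉ ⌊b * m - t * m⌋) := by
    refine card_le_card_of_injOn (fun j : ℕ => (s * j - m * round (t + s * j / m) : ℤ))
      (fun j hj => ?_) fun j hj j' hj' e => ?_
    · have h2 := (mem_filter.1 (mem_coe.1 hj)).2
      rw [← AddCircle.coe_add, UnitAddCircle.norm_eq, abs_lt] at h2
      have h3 := mul_lt_mul_of_pos_right h2.1 hm'
      have h4 := mul_lt_mul_of_pos_right h2.2 hm'
      have h5 : (t + s * j / m - round (t + s * j / m)) * m =
          t * m + (s * j - m * round (t + s * j / m)) := by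
        field_simp
        ring
      rw [h5] at h3 h4
      rw [mem_coe, mem_Icc, Int.ceil_le, Int.le_floor]
      push_cast
      constructor <;> linarith
    · have a1 := mem_range.1 (mem_filter.1 (mem_coe.1 hj)).1
      have a2 := mem_range.1 (mem_filter.1 (mem_coe.1 hj')).1
      have h2 : (m : ℤ) ∣ s * (j - j') :=
        ⟨round (t + s * j / m) - round (t + s * j' / m), by linear_combination e⟩
      have h3 := Int.eq_zero_of_abs_lt_dvd
        ((Nat.isCoprime_iff_coprime.2 hs.symm).dvd_of_dvd_mul_left h2) (abs_lt.2 (by omega))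
      omega
  refine (Nat.cast_le.2 h1).trans ?_
  rw [Int.card_Icc]
  have h6 : 0 ≤ b * m := by positivity
  rcases le_total (⌊b * m - t * m⌋ + 1 - ⌈-(b * m) - t * m⌉) 0 with h | h
  · rw [Int.toNat_of_nonpos h, Nat.cast_zero]
    linarith
  · rw [← Int.cast_natCast, Int.toNat_of_nonneg h]
    push_cast
    linarith [Int.floor_le (b * m - t * m), Int.le_ceil (-(b * m) - t * m)]

end Vale.Agent.P028
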