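import Vale.Agent.P028.Vol
import Vale.Agent.P028.Pts

namespace Vale.Agent.P028

open MeasureTheory Finset Real

theorem overlap {q r : ℕ} (hq : 0 < q) (hr : 0 < r) (α β : UnitAddCircle) {a b : ℝ} (h0 : 0 ≤ a)
    (h1 : a ≤ 1 / 2) (hb : 0 ≤ b) :
    volume.real (Aq q α a ∩ Aq r β b) ≤ 2 * a * (2 * b) + 2 * a * (Nat.gcd q r) / q := by
  classical
  have g0 : 0 < Nat.gcd q r := Nat.gcd_pos_of_pos_left r hq
  obtain ⟨m, hm⟩ := Nat.gcd_dvd_left q r
  obtain ⟨s, hs⟩ := Nat.gcd_dvd_right q r
  have hc : Nat.Coprime s m := by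
    have := Nat.coprime_div_gcd_div_gcd g0
    rw [Nat.div_eq_of_eq_mul_right g0 hm, Nat.div_eq_of_eq_mul_right g0 hs] at this
    exact this.symm
  generalize Nat.gcd q r = g at *
  have m0 : 0 < m := Nat.pos_of_ne_zero fun h => by simp [h] at hm; omega
  have q0 : (0 : ℝ) < q := by exact_mod_cast hq
  have g1 : (0 : ℝ) < g := by exact_mod_cast g0
  have m1 : (0 : ℝ) < m := by exact_mod_cast m0
  have eq : (q : ℝ) = g * m := by exact_mod_cast hm
  have er : (r : ℝ) = g * s := by exact_mod_cast hs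
  have mB : ∀ j : ℕ, MeasurableSet (Aq r (β - ((s * j / m : ℝ) : UnitAddCircle)) b) := fun j =>
    meas_Aq _ _ _
  have e1 : ∀ j : ℕ, volume.real (Aq q α a ∩ Aq r β b) =
      volume.real (Aq q α a ∩ Aq r (β - ((s * j / m : ℝ) : UnitAddCircle)) b) := fun j => by
    have e : (fun x => x + ((j / q : ℝ) : UnitAddCircle)) ⁻¹' (Aq q α a ∩ Aq r β b) =
        Aq q α a ∩ Aq r (β - ((s * j / m : ℝ) : UnitAddCircle)) b := by
      have a1 : q • ((j / q : ℝ) : UnitAddCircle) = 0 := by
        rw [← AddCircle.coe_nsmul, nsmul_eq_mul, mul_div_cancel₀ _ q0.ne',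
          AddCircle.coe_eq_zero_iff]
        exact ⟨j, by simp⟩
      have a2 : r • ((j / q : ℝ) : UnitAddCircle) = ((s * j / m : ℝ) : UnitAddCircle) := by
        rw [← AddCircle.coe_nsmul, nsmul_eq_mul, er, eq]
        congr 1
        field_simp
      ext x
      simp only [Aq, Set.mem_preimage, Set.mem_inter_iff, Set.mem_setOf_eq, smul_add, a1, a2,
        add_zero, sub_sub_eq_add_sub]
    rw [← e, Measure.real, Measure.real, measure_preimage_add_right]
  have e2 : m * volume.real (Aq q α a ∩ Aq r β b) = ∫ x in Aq q α a, ∑ j ∈ range m,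
      (Aq r (β - ((s * j / m : ℝ) : UnitAddCircle)) b).indicator (1 : UnitAddCircle → ℝ) x := by
    rw [integral_finset_sum _ fun j _ => (integrable_const 1).indicator (mB j)]
    rw [sum_congr rfl fun j _ => by
      rw [integral_indicator_one (mB j), measureReal_restrict_apply (mB j), Set.inter_comm, ← e1 j]]
    simp
  have e3 : m * volume.real (Aq q α a ∩ Aq r β b) ≤ 2 * a * (2 * b * m + 1) := by
    rw [e2, ← vol_Aq hq α h0 h1, ← smul_eq_mul, ← setIntegral_const]
    refine integral_mono (integrable_finset_sum _ fun j _ => (integrable_const 1).indicator (mB j))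
      (integrable_const _) fun x => ?_
    refine le_trans (le_of_eq ?_) (cnt_pts m0 hc (r • x - β) hb)
    rw [card_filter]
    push_cast
    refine sum_congr rfl fun j _ => ?_
    rw [Set.indicator_apply]
    simp only [Aq, Set.mem_setOf_eq, Pi.one_apply, sub_sub_eq_add_sub, add_sub_right_comm]
  refine le_of_mul_le_mul_left (e3.trans (le_of_eq ?_)) m1
  rw [eq]
  field_simp

end Vale.Agent.P028
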