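import Vale.Agent.P028.Defs

namespace Vale.Agent.P028

open MeasureTheory Finset Real

theorem meas_Aq (q : ℕ) (α : UnitAddCircle) (a : ℝ) : MeasurableSet (Aq q α a) :=
  (isOpen_lt (by fun_prop) continuous_const).measurableSet

theorem vol_Aq {q : ℕ} (hq : 0 < q) (α : UnitAddCircle) {a : ℝ} (h0 : 0 ≤ a) (h1 : a ≤ 1 / 2) :
    volume.real (Aq q α a) = 2 * a := by
  have hm : MeasurePreserving (fun x : UnitAddCircle => (q : ℤ) • x) volume volume :=
    Measure.measurePreserving_zsmul volume (by exact_mod_cast hq.ne')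
  have e : Aq q α a = (fun x : UnitAddCircle => (q : ℤ) • x) ⁻¹' Metric.ball α a := by
    ext x
    simp [Aq, dist_eq_norm]
  rw [Measure.real, e, hm.measure_preimage Metric.isOpen_ball.measurableSet.nullMeasurableSet,
    ← measure_congr AddCircle.closedBall_ae_eq_ball, AddCircle.volume_closedBall,
    min_eq_right (by linarith), ENNReal.toReal_ofReal (by linarith)]

theorem ae_real {S : Set UnitAddCircle} (h : volume S = 0) :
    volume {x : ℝ | (x : UnitAddCircle) ∈ S} = 0 := by
  have key : ∀ n : ℤ, volume ({x : ℝ | (x : UnitAddCircle) ∈ S} ∩ Set.Ioc (n : ℝ) (n + 1)) = 0 := by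
    intro n
    have h1 := (AddCircle.measurePreserving_mk 1 (n : ℝ)).quasiMeasurePreserving.preimage_null h
    rwa [Measure.restrict_apply' measurableSet_Ioc] at h1
  have h2 := measure_iUnion_null key
  rwa [← Set.inter_iUnion, iUnion_Ioc_intCast, Set.inter_univ] at h2

end Vale.Agent.P028
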