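import Vale.Agent.P028.Dv

namespace Vale.Agent.P028

open MeasureTheory Finset Real

theorem Wt_32 {b : ℝ} (hb : 0 < b) : b ^ (3 / 2 : ℝ) = b * √b := by
  rw [show (3 / 2 : ℝ) = 1 + 1 / 2 by norm_num, rpow_add hb, rpow_one, sqrt_eq_rpow]

theorem Wt_card {q : ℕ} (hq : 0 < q) :
    #(q.divisors.filter Squarefree) = 2 ^ q.primeFactors.card := by
  rw [card_eq_sum_ones, Nat.sum_divisors_filter_squarefree hq.ne', ← card_eq_sum_ones,
    card_powerset, Nat.factors_eq]
  simp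

theorem weight {c : ℝ} (hc : 2 < c) : ∃ (w : ℕ → ℝ) (C : ℝ), 0 ≤ C ∧ (∀ n, 0 ≤ w n) ∧
    (∀ (y : ℝ) (S : Finset ℕ), 0 ≤ y → (∀ n ∈ S, 0 < n ∧ w n ≤ y) → (#S : ℝ) ≤ C * y) ∧
    ∀ q : ℕ, 0 < q → ∑ d ∈ q.divisors, w d / d ≤ C * c ^ q.primeFactors.card := by
  choose A B hAB hsq using Nat.sq_mul_squarefree
  obtain ⟨C0, hC0, hdiv⟩ := div_sum (c := c / 2) (by linarith)
  have hsum : Summable fun b : ℕ => 1 / (b : ℝ) ^ (3 / 2 : ℝ) :=
    Real.summable_one_div_nat_rpow.2 (by norm_num)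
  have hZ : 0 ≤ ∑' b : ℕ, 1 / (b : ℝ) ^ (3 / 2 : ℝ) := tsum_nonneg fun b => by positivity
  have hA : ∀ n, 0 < A n := fun n => Nat.pos_of_ne_zero (hsq n).ne_zero
  have hB : ∀ n, 0 < n → 0 < B n := fun n hn => Nat.pos_of_ne_zero fun h => by
    have := hAB n
    rw [h] at this
    simp at this
    omega
  have hinj : ∀ m n, A m = A n → B m = B n → m = n := fun m n h1 h2 => by
    rw [← hAB m, h1, h2, hAB n]
  refine ⟨fun n => A n * (B n : ℝ) ^ (3 / 2 : ℝ), ∑' b : ℕ, 1 / (b : ℝ) ^ (3 / 2 : ℝ) + C0,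
    by positivity, fun n => by positivity, fun y S hy hS => ?_, fun q hq => ?_⟩
  · have h1 : ∀ b ∈ S.image B, (#(S.filter fun n => B n = b) : ℝ) ≤
        1 / (b : ℝ) ^ (3 / 2 : ℝ) * y := by
      intro b hb
      obtain ⟨n0, hn0, rfl⟩ := mem_image.1 hb
      have hb0 : (0 : ℝ) < B n0 := by exact_mod_cast hB n0 (hS n0 hn0).1
      have hp : 0 < (B n0 : ℝ) ^ (3 / 2 : ℝ) := by positivity
      have h2 : #(S.filter fun n => B n = B n0) ≤
          #(Icc 1 ⌊1 / (B n0 : ℝ) ^ (3 / 2 : ℝ) * y⌋₊) := by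
        refine card_le_card_of_injOn A (fun n hn => ?_) fun m hm n hn h => ?_
        · obtain ⟨k1, k2⟩ := mem_filter.1 hn
          refine mem_coe.2 (mem_Icc.2 ⟨hA n, Nat.le_floor ?_⟩)
          have := (hS n k1).2
          simp only [k2] at this
          rw [one_div_mul_eq_div, le_div_iff₀ hp]
          exact this
        · exact hinj m n h ((mem_filter.1 hm).2.trans (mem_filter.1 hn).2.symm)
      rw [Nat.card_Icc, Nat.add_sub_cancel] at h2
      exact (Nat.cast_le.2 h2).trans (Nat.floor_le (by positivity))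
    rw [card_eq_sum_card_image B S, Nat.cast_sum]
    refine (sum_le_sum h1).trans ?_
    rw [← sum_mul]
    refine mul_le_mul_of_nonneg_right ?_ hy
    have := hsum.sum_le_tsum (S.image B) fun b _ => by positivity
    linarith
  · have e1 : ∀ d ∈ q.divisors, (A d : ℝ) * (B d : ℝ) ^ (3 / 2 : ℝ) / d = 1 / √(B d : ℝ) := by
      intro d hd
      have hb0 : (0 : ℝ) < B d := by exact_mod_cast hB d (Nat.pos_of_mem_divisors hd)
      have ha0 : (0 : ℝ) < A d := by exact_mod_cast hA d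
      have hd' : (d : ℝ) = (B d : ℝ) ^ 2 * A d := by exact_mod_cast (hAB d).symm
      have hs := Real.mul_self_sqrt hb0.le
      have hs0 := Real.sqrt_pos.2 hb0
      rw [Wt_32 hb0, div_eq_div_iff (by rw [hd']; positivity) hs0.ne', one_mul]
      refine Eq.trans ?_ hd'.symm
      rw [mul_assoc, mul_assoc, hs]; ring
    rw [sum_congr rfl e1]
    have e2 : ∑ d ∈ q.divisors, 1 / √(B d : ℝ) =
        ∑ p ∈ q.divisors.image fun d => (A d, B d), 1 / √(p.2 : ℝ) := by
      rw [sum_image fun m _ n _ h => hinj m n (congrArg Prod.fst h) (congrArg Prod.snd h)]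
    have e3 : (q.divisors.image fun d => (A d, B d)) ⊆
        (q.divisors.filter Squarefree) ×ˢ q.divisors := by
      intro p hp
      obtain ⟨d, hd, rfl⟩ := mem_image.1 hp
      have hdq := Nat.dvd_of_mem_divisors hd
      refine mem_product.2 ⟨mem_filter.2 ⟨Nat.mem_divisors.2 ⟨Dvd.dvd.trans ?_ hdq, hq.ne'⟩, hsq d⟩,
        Nat.mem_divisors.2 ⟨Dvd.dvd.trans ?_ hdq, hq.ne'⟩⟩
      · exact Dvd.intro_left _ (hAB d)
      · exact Dvd.intro (B d * A d) (by rw [← mul_assoc, ← sq]; exact hAB d)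
    rw [e2]
    refine (sum_le_sum_of_subset_of_nonneg e3 fun _ _ _ => by positivity).trans ?_
    rw [sum_product]
    simp only [sum_const, nsmul_eq_mul, Wt_card hq, Nat.cast_pow, Nat.cast_ofNat]
    have h3 := mul_le_mul_of_nonneg_left (hdiv q hq)
      (show (0 : ℝ) ≤ 2 ^ q.primeFactors.card by positivity)
    refine h3.trans ?_
    rw [mul_left_comm, ← mul_pow, mul_div_cancel₀ _ (two_ne_zero)]
    have : 0 < c := by linarith
    exact mul_le_mul_of_nonneg_right (by linarith) (by positivity)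

end Vale.Agent.P028
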